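import Vale.Agent.Lib.P150.Ising

/-!
# P150: a deterministic lower bound on the relaxation time of heat-bath Glauber dynamics

For every coupling matrix `J` (in particular for every realisation of the
Sherrington-Kirkpatrick disorder and every inverse temperature) the relaxation time
`sup_f Var(f) / E(f,f)` is at least `(1/n) ∑_{i,j} ⟨x_i x_j⟩^2`, that is `n` times the
Gibbs average of the squared overlap of two replicas.
-/

namespace Vale.Agent.Results.P150.CorrBound

open Vale.Agent.Lib.P150

theorem result {n : ℕ} (J : Fin n → Fin n → ℝ) :
    ENNReal.ofReal ((∑ i, ∑ j, corr J i j ^ 2) / n) ≤ relaxTime J :=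
  corr_sq_le_relaxTime J

end Vale.Agent.Results.P150.CorrBound
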