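import Vale.Agent.Lib.P150.SKMix

/-!
# P150: three lower bounds for heat-bath Glauber dynamics of Ising and SK Gibbs measures

Plain conjunction of three results (each also handed in separately).

* (1) Deterministic: for every coupling matrix `J` the relaxation time `sup_f Var(f) / E(f,f)`
  is at least `(1/n) ∑_{i,j} ⟨x_i x_j⟩^2`.
* (2) SK model, `J i j = β / √n * g (i, j)` with `g` independent standard Gaussians: the expected
  relaxation time is at least `n (1 - 2 √(log 2) / β)`.
* (3) SK model, `δ = 1 - 2 √(log 2) / β`, any `a < 1`: with probability at least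
  `(δ - a) / (1 - a)` the relaxation time is at least `a n` and the mixing time is at least
  `log 2 * a n`.
-/

namespace Vale.Agent.Results.P150.Omnibus

open Vale.Agent.Lib.P150 MeasureTheory ProbabilityTheory

theorem result :
    (∀ (n : ℕ) (J : Fin n → Fin n → ℝ),
      ENNReal.ofReal ((∑ i, ∑ j, corr J i j ^ 2) / n) ≤ relaxTime J) ∧
    (∀ (n : ℕ), 1 ≤ n → ∀ β : ℝ, 0 < β →
      ENNReal.ofReal (n * (1 - 2 * Real.sqrt (Real.log 2) / β)) ≤
        ∫⁻ g, relaxTime (skCoupling n β g)
          ∂(Measure.pi (fun _ : Fin n × Fin n => gaussianReal 0 1))) ∧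
    (∀ (n : ℕ), 1 ≤ n → ∀ β : ℝ, 0 < β → ∀ a : ℝ, a < 1 →
      ENNReal.ofReal ((1 - 2 * Real.sqrt (Real.log 2) / β - a) / (1 - a)) ≤
        (Measure.pi (fun _ : Fin n × Fin n => gaussianReal 0 1))
          {g | ENNReal.ofReal (a * n) ≤ relaxTime (skCoupling n β g) ∧
            ENNReal.ofReal (Real.log 2 * (a * n)) ≤ mixingTime (skCoupling n β g)}) :=
  ⟨fun _ J => corr_sq_le_relaxTime J,
    fun _ hn β hβ => sk_relaxTime_lower β hβ hn,
    fun _ hn β hβ a ha => sk_relax_mix_prob β hβ hn a ha⟩

end Vale.Agent.Results.P150.Omnibus
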