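import Vale.Agent.Lib.P150.SKMix

/-!
# P150: relaxation and mixing times of SK Glauber dynamics are linear in `n` with positive
probability

The disorder `g` consists of independent standard Gaussians indexed by `Fin n × Fin n` (only the
entries with `i < j` enter the Gibbs weight); the couplings are `J i j = β / √n * g (i, j)`.
With `δ = 1 - 2 √(log 2) / β` and any `a < 1`: with probability at least `(δ - a) / (1 - a)` the
relaxation time is at least `a n` and the mixing time is at least `log 2 * a n`.
-/

namespace Vale.Agent.Results.P150.SKMixProb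

open Vale.Agent.Lib.P150 MeasureTheory ProbabilityTheory

theorem result (n : ℕ) (hn : 1 ≤ n) (β : ℝ) (hβ : 0 < β) (a : ℝ) (ha : a < 1) :
    ENNReal.ofReal ((1 - 2 * Real.sqrt (Real.log 2) / β - a) / (1 - a)) ≤
      (Measure.pi (fun _ : Fin n × Fin n => gaussianReal 0 1))
        {g | ENNReal.ofReal (a * n) ≤ relaxTime (skCoupling n β g) ∧
          ENNReal.ofReal (Real.log 2 * (a * n)) ≤ mixingTime (skCoupling n β g)} :=
  sk_relax_mix_prob β hβ hn a ha

end Vale.Agent.Results.P150.SKMixProb
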