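import Vale.Agent.Lib.P150.SK

/-!
# P150: the expected relaxation time of SK Glauber dynamics is at least `n (1 - 2 √(log 2) / β)`

The disorder `g` consists of independent standard Gaussians indexed by `Fin n × Fin n` (only the
entries with `i < j` enter the Gibbs weight); the couplings are `J i j = β / √n * g (i, j)`.
-/

namespace Vale.Agent.Results.P150.SKRelaxExpect

open Vale.Agent.Lib.P150 MeasureTheory ProbabilityTheory

theorem result (n : ℕ) (hn : 1 ≤ n) (β : ℝ) (hβ : 0 < β) :
    ENNReal.ofReal (n * (1 - 2 * Real.sqrt (Real.log 2) / β)) ≤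
      ∫⁻ g, relaxTime (skCoupling n β g)
        ∂(Measure.pi (fun _ : Fin n × Fin n => gaussianReal 0 1)) :=
  sk_relaxTime_lower β hβ hn

end Vale.Agent.Results.P150.SKRelaxExpect
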